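import Vale.Agent.P207.N3.Top.Defs
import Vale.Agent.P207.N3.H545.Tens
import Vale.Agent.P207.N3.H545.Step2

/-!
N3-P13T (helper854): linear algebra of the plane, frames of the leaf of a closed orbit.
-/

set_option maxSynthPendingDepth 3

open Set Filter Topology Metric
open scoped ContDiff

noncomputable section

namespace Vale.Agent.P207.N3.H854

open Vale.Agent.P207.N3 Vale.Agent.P207.N3.H545

/-! ### the plane -/

/-- the unit vectors -/
def ee (i : Fin 2) : E2 := EuclideanSpace.single i 1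

theorem ee_same (i : Fin 2) : ee i i = 1 := by simp [ee]

theorem ee_00 : ee 0 0 = 1 := by simp [ee]
theorem ee_01 : ee 0 1 = 0 := by simp [ee]
theorem ee_10 : ee 1 0 = 0 := by simp [ee]
theorem ee_11 : ee 1 1 = 1 := by simp [ee]

theorem ext2 {x y : E2} (h0 : x 0 = y 0) (h1 : x 1 = y 1) : x = y := by
  ext i
  fin_cases i
  · exact h0
  · exact h1

theorem eq_ee (v : E2) : v = v 0 • ee 0 + v 1 • ee 1 := by
  apply ext2
  · simp [ee]
  · simp [ee]

theorem inner2 (v w : E2) : inner ℝ v w = v 0 * w 0 + v 1 * w 1 := by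
  simp [PiLp.inner_apply, Fin.sum_univ_two, mul_comm]

theorem det2 (A : E2 →L[ℝ] E2) :
    A.det = A (ee 0) 0 * A (ee 1) 1 - A (ee 1) 0 * A (ee 0) 1 := by
  have h : A.det = LinearMap.det (A : E2 →ₗ[ℝ] E2) := rfl
  rw [h, ← LinearMap.det_toMatrix (EuclideanSpace.basisFun (Fin 2) ℝ).toBasis,
    Matrix.det_fin_two]
  simp [LinearMap.toMatrix_apply, ee]

theorem det_mul' (A A' : E2 →L[ℝ] E2) : (A * A').det = A.det * A'.det := by
  have h : (A * A').det = LinearMap.det ((A : E2 →ₗ[ℝ] E2) * (A' : E2 →ₗ[ℝ] E2)) := rfl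
  rw [h, LinearMap.det.map_mul]

theorem det_comp' (A A' : E2 →L[ℝ] E2) : (A.comp A').det = A.det * A'.det := det_mul' A A'

theorem continuous_det : Continuous fun A : E2 →L[ℝ] E2 => A.det := by
  have h : (fun A : E2 →L[ℝ] E2 => A.det) =
      fun A : E2 →L[ℝ] E2 => A (ee 0) 0 * A (ee 1) 1 - A (ee 1) 0 * A (ee 0) 1 :=
    funext det2
  rw [h]
  have hc : ∀ (i j : Fin 2), Continuous fun A : E2 →L[ℝ] E2 => A (ee i) j := fun i j =>
    (EuclideanSpace.proj (𝕜 := ℝ) j).continuous.comp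
      (ContinuousLinearMap.apply ℝ E2 (ee i)).continuous
  exact ((hc 0 0).mul (hc 1 1)).sub ((hc 1 0).mul (hc 0 1))

theorem contDiff_det : ContDiff ℝ ∞ fun A : E2 →L[ℝ] E2 => A.det := by
  have h : (fun A : E2 →L[ℝ] E2 => A.det) =
      fun A : E2 →L[ℝ] E2 => A (ee 0) 0 * A (ee 1) 1 - A (ee 1) 0 * A (ee 0) 1 :=
    funext det2
  rw [h]
  have hc : ∀ (i j : Fin 2), ContDiff ℝ ∞ fun A : E2 →L[ℝ] E2 => A (ee i) j := fun i j =>
    (EuclideanSpace.proj (𝕜 := ℝ) j).contDiff.comp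
      (ContinuousLinearMap.apply ℝ E2 (ee i)).contDiff
  exact ((hc 0 0).mul (hc 1 1)).sub ((hc 1 0).mul (hc 0 1))

/-- the invertible linear map -/
def equivOfDet (A : E2 →L[ℝ] E2) (h : A.det ≠ 0) : E2 ≃L[ℝ] E2 :=
  A.toContinuousLinearEquivOfDetNeZero h

theorem coe_equivOfDet (A : E2 →L[ℝ] E2) (h : A.det ≠ 0) :
    (equivOfDet A h : E2 →L[ℝ] E2) = A := by
  ext v : 1
  simp [equivOfDet]

theorem equivOfDet_apply (A : E2 →L[ℝ] E2) (h : A.det ≠ 0) (v : E2) :
    equivOfDet A h v = A v :=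
  DFunLike.congr_fun (coe_equivOfDet A h) v

theorem isUnit_of_det (A : E2 →L[ℝ] E2) (h : A.det ≠ 0) : IsUnit A := by
  refine ⟨⟨A, ((equivOfDet A h).symm : E2 →L[ℝ] E2), ?_, ?_⟩, rfl⟩
  · ext v : 1
    have h1 := (equivOfDet A h).apply_symm_apply v
    rw [equivOfDet_apply] at h1
    exact h1
  · ext v : 1
    have h1 := (equivOfDet A h).symm_apply_apply v
    rw [equivOfDet_apply] at h1
    exact h1

/-! ### frames -/

variable {Γ X B : Type} [Group Γ] [MetricSpace X] [ProperSpace X] [MulAction Γ X]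
  [IsIsometricSMul Γ X] [TopologicalSpace B] [CompactSpace B] [T2Space B] [MulAction Γ B]
  [ContinuousConstSMul Γ B]

theorem ep_φ (L : Leaf Γ X B) (t : ℝ) (x : X) : L.ep (L.φ t x) = L.ep x := by
  rw [L.ep_flip, L.flip_φ, L.em_φ, ← L.ep_flip]

theorem ep_rot (L : Leaf Γ X B) (a : O2) (x : X) : L.ep (L.rot a x) = L.ep x := by
  rw [L.ep_flip, L.flip_rot, L.em_rot, ← L.ep_flip]

theorem ep_smul (L : Leaf Γ X B) (g : Γ) (x : X) : L.ep (g • x) = g • L.ep x := by
  rw [L.ep_flip, L.flip_smul, L.em_smul, ← L.ep_flip]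

variable {L : Leaf Γ X B} (o : Orb L)

theorem smul_neg : o.β • o.neg = o.neg := by
  have := L.em_smul o.β o.x
  rw [o.ax.eq, L.em_φ, L.em_rot] at this
  exact this.symm

theorem smul_pos : o.β • o.pos = o.pos := by
  have := ep_smul L o.β o.x
  rw [o.ax.eq, ep_φ, ep_rot] at this
  exact this.symm

theorem inv_smul_neg : o.β⁻¹ • o.neg = o.neg := by
  rw [inv_smul_eq_iff]; exact (smul_neg o).symm

theorem inv_smul_pos : o.β⁻¹ • o.pos = o.pos := by
  rw [inv_smul_eq_iff]; exact (smul_pos o).symm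

theorem em_smul_β {y : X} (hy : L.em y = o.neg) : L.em (o.β • y) = o.neg := by
  rw [L.em_smul, hy, smul_neg]

theorem em_inv_smul {y : X} (hy : L.em y = o.neg) : L.em (o.β⁻¹ • y) = o.neg := by
  rw [L.em_smul, hy, inv_smul_neg]

theorem lv_smul_β {y : X} (hy : L.em y = o.neg) : L.lv (o.β • y) = L.lv y + o.l := by
  have h1 := L.lv_smul o.β y o.x hy
  rw [o.ax.eq, L.lv_φ, L.lv_rot] at h1
  linarith

theorem em_pow_smul (m : ℕ) {y : X} (hy : L.em y = o.neg) : L.em (o.β ^ m • y) = o.neg := by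
  induction m with
  | zero => simpa using hy
  | succ m ih => rw [pow_succ', mul_smul]; exact em_smul_β o ih

theorem lv_pow_smul (m : ℕ) {y : X} (hy : L.em y = o.neg) :
    L.lv (o.β ^ m • y) = L.lv y + m * o.l := by
  induction m with
  | zero => simp
  | succ m ih =>
    rw [pow_succ', mul_smul, lv_smul_β o (em_pow_smul o m hy), ih]
    push_cast; ring

theorem smul_ne_neg {η : B} (h : η ≠ o.neg) : o.β • η ≠ o.neg := by
  intro h1
  apply h
  rw [← smul_left_cancel_iff o.β, h1, smul_neg]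

theorem inv_smul_ne_neg {η : B} (h : η ≠ o.neg) : o.β⁻¹ • η ≠ o.neg := by
  intro h1
  apply h
  rw [← smul_left_cancel_iff o.β⁻¹, h1, inv_smul_neg]

theorem pow_smul_ne_neg (m : ℕ) {η : B} (h : η ≠ o.neg) : o.β ^ m • η ≠ o.neg := by
  induction m with
  | zero => simpa using h
  | succ m ih => rw [pow_succ', mul_smul]; exact smul_ne_neg o ih

theorem e_ne_neg {y : X} (hy : L.em y = o.neg) {u : E2} (hu : u ∈ ball (0 : E2) 3) :
    L.e y u ≠ o.neg := by
  rw [← hy]; exact L.e_ne y u (ball_subset_closedBall hu)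

theorem pos_ne_neg : o.pos ≠ o.neg := fun h => L.em_ne_ep o.x h.symm

end Vale.Agent.P207.N3.H854
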