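import Vale.Agent.P207.N3.H854.Lev2

/-!
N3-P13T (helper854): the four types from the local form; `0 < χ ≤ h`.
-/

set_option maxSynthPendingDepth 3

open Set Filter Topology Metric
open scoped ContDiff

noncomputable section

namespace Vale.Agent.P207.N3.H854

open Vale.Agent.P207.N3 Vale.Agent.P207.N3.H545
open Vale.Agent.P207.N3.H790 (NF)

variable {Γ X B : Type} [Group Γ] [MetricSpace X] [ProperSpace X] [MulAction Γ X]
  [IsIsometricSMul Γ X] [TopologicalSpace B] [CompactSpace B] [T2Space B] [MulAction Γ B]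
  [ContinuousConstSMul Γ B]

variable {L : Leaf Γ X B} {o : Orb L} {n : Nor L o} {T : Tens L}
variable [MeasurableSpace B] [BorelSpace B] {A : Area L} {k₀ : ℕ}

theorem one_lt_m2 {N : NF} (h : N.OK) : 1 < N.m2 := by
  cases N with
  | tri μ₁ μ₂ a k => exact h.1
  | cx c s =>
    show 1 < Real.sqrt (c ^ 2 + s ^ 2)
    rw [Real.lt_sqrt (by norm_num)]
    simpa using h.2

theorem m2_le_m1 {N : NF} (h : N.OK) : N.m2 ≤ N.m1 := by
  cases N with
  | tri μ₁ μ₂ a k => exact h.2.1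
  | cx c s => exact le_rfl

variable (A) in
theorem lam_add (n : Nor L o) : n.lam1 + n.lam2 = A.h := by
  have hl : 0 < o.l := o.ax.pos
  have h2 := one_lt_m2 n.ok
  have h1 := m2_le_m1 n.ok
  unfold Nor.lam1 Nor.lam2
  rw [← add_div, ← Real.log_mul (by linarith) (by linarith), m1_mul_m2 n A, Real.log_exp]
  field_simp

omit [MeasurableSpace B] [BorelSpace B] in
theorem lam2_pos (n : Nor L o) : 0 < n.lam2 :=
  div_pos (Real.log_pos (one_lt_m2 n.ok)) o.ax.pos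

omit [MeasurableSpace B] [BorelSpace B] in
theorem lam2_le_lam1 (n : Nor L o) : n.lam2 ≤ n.lam1 := by
  have h2 := one_lt_m2 n.ok
  exact div_le_div_of_nonneg_right (Real.log_le_log (by linarith) (m2_le_m1 n.ok)) o.ax.pos.le

/-- (476) the exponents of typed orbits -/
theorem chi_bounds {t : LevForm A T k₀ o} (h : t.IsF ∨ t.IsS ∨ t.IsC ∨ t.IsJ) :
    0 < t.χ ∧ t.χ ≤ A.h := by
  have h1 := lam_add A t.n
  have h2 := lam2_pos t.n
  have h3 := lam2_le_lam1 t.n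
  have h4 := A.h_pos
  rcases h with h | h | h | h
  · rw [h.2.2]; constructor <;> linarith
  · rw [h.2.2.2]; constructor <;> linarith
  · rw [h.2.2]; constructor <;> linarith
  · rw [h.2.2]; constructor <;> linarith

theorem chi_pos (p : Typed A T k₀) : 0 < p.t.χ := (chi_bounds p.type).1

theorem chi_le (p : Typed A T k₀) : p.t.χ ≤ A.h := (chi_bounds p.type).2

/-! ### the four types -/

variable (A)

theorem half_of_eq {μ : ℝ} {a : ℝ} {k : ℕ} (hN : n.N = .tri μ μ a k) :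
    Real.log |μ| / o.l = A.h / 2 := by
  have h1 := lam_add A n
  unfold Nor.lam1 Nor.lam2 at h1
  rw [hN] at h1
  have h2 : Real.log |μ| / o.l + Real.log |μ| / o.l = A.h := h1
  linarith

/-- type F -/
theorem typeF_of_loc (hR : Rough T k₀) {μ₁ μ₂ a : ℝ} {k : ℕ} (hN : n.N = .tri μ₁ μ₂ a k)
    (hS : n.N.Split) (hloc : LocForm T n 1) : ∃ t : LevForm A T k₀ o, t.n = n ∧ t.IsF := by
  have hok := n.ok
  rw [hN] at hok
  have hD : DirN n.N 1 μ₂ μ₁ := by rw [hN]; exact dirN_one hok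
  obtain ⟨t, ht1, ht2, ht3⟩ := lev_of_loc A hR hD hloc
  refine ⟨t, ht1, ?_, ht2, ?_⟩
  · rw [ht1]; exact hS
  · rw [ht3, ht1]
    unfold Nor.lam2
    rw [hN]; rfl

/-- type S -/
theorem typeS_of_loc (hR : Rough T k₀) {μ₁ μ₂ : ℝ} {k : ℕ} (hN : n.N = .tri μ₁ μ₂ 0 k)
    (hS : n.N.Split) (hloc : LocForm T n 0) : ∃ t : LevForm A T k₀ o, t.n = n ∧ t.IsS := by
  have hok := n.ok
  rw [hN] at hok
  have hD : DirN n.N 0 μ₁ μ₂ := by rw [hN]; exact dirN_zero hok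
  obtain ⟨t, ht1, ht2, ht3⟩ := lev_of_loc A hR hD hloc
  refine ⟨t, ht1, ?_, ⟨μ₁, μ₂, k, ?_⟩, ht2, ?_⟩
  · rw [ht1]; exact hS
  · rw [ht1]; exact hN
  · rw [ht3, ht1]
    unfold Nor.lam1
    rw [hN]; rfl

/-- type E, scalar -/
theorem typeC_of_loc (hR : Rough T k₀) {μ : ℝ} {k : ℕ} (hN : n.N = .tri μ μ 0 k)
    (hloc : LocForm T n 1) : ∃ t : LevForm A T k₀ o, t.n = n ∧ t.IsC := by
  have hok := n.ok
  rw [hN] at hok
  have hD : DirN n.N 1 μ μ := by rw [hN]; exact dirN_one hok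
  obtain ⟨t, ht1, ht2, ht3⟩ := lev_of_loc A hR hD hloc
  refine ⟨t, ht1, ⟨μ, k, ?_⟩, ht2, ?_⟩
  · rw [ht1]; exact hN
  · rw [ht3]; exact half_of_eq A hN

/-- type E, Jordan block -/
theorem typeJ_of_loc (hR : Rough T k₀) {μ a : ℝ} (ha : a ≠ 0) (hN : n.N = .tri μ μ a 1)
    (hloc : LocForm T n 1) : ∃ t : LevForm A T k₀ o, t.n = n ∧ t.IsJ := by
  have hok := n.ok
  rw [hN] at hok
  have hD : DirN n.N 1 μ μ := by rw [hN]; exact dirN_one hok
  obtain ⟨t, ht1, ht2, ht3⟩ := lev_of_loc A hR hD hloc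
  refine ⟨t, ht1, ⟨μ, a, ha, ?_⟩, ht2, ?_⟩
  · rw [ht1]; exact hN
  · rw [ht3]; exact half_of_eq A hN

end Vale.Agent.P207.N3.H854
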