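import Vale.Agent.P207.N3.H854.Basic

/-!
N3-P13T (helper854): in the normal coordinate of a closed orbit the Margulis area is a constant
multiple of the Lebesgue measure, and the product of the eigenvalues is `± e^{h l}`.
-/

set_option maxSynthPendingDepth 3

open Set Filter Topology Metric
open scoped ContDiff

noncomputable section

namespace Vale.Agent.P207.N3.H854

open Vale.Agent.P207.N3 Vale.Agent.P207.N3.H545
open Vale.Agent.P207.N3.H790 (NF)

/-! ### normal forms -/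

/-- the matrix with rows `(a, b)`, `(c, d)` -/
def mat (a b c d : ℝ) : E2 →L[ℝ] E2 :=
  (a • EuclideanSpace.proj (𝕜 := ℝ) (0 : Fin 2) +
    b • EuclideanSpace.proj (𝕜 := ℝ) (1 : Fin 2)).smulRight (ee 0) +
  (c • EuclideanSpace.proj (𝕜 := ℝ) (0 : Fin 2) +
    d • EuclideanSpace.proj (𝕜 := ℝ) (1 : Fin 2)).smulRight (ee 1)

theorem mat_0 (a b c d : ℝ) (v : E2) : mat a b c d v 0 = a * v 0 + b * v 1 := by
  simp [mat, ee]

theorem mat_1 (a b c d : ℝ) (v : E2) : mat a b c d v 1 = c * v 0 + d * v 1 := by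
  simp [mat, ee]

theorem det_mat (a b c d : ℝ) : (mat a b c d).det = a * d - b * c := by
  rw [det2]
  simp only [mat_0, mat_1, ee_00, ee_01, ee_10, ee_11]
  ring

theorem eq_mat (A : E2 →L[ℝ] E2) :
    A = mat (A (ee 0) 0) (A (ee 1) 0) (A (ee 0) 1) (A (ee 1) 1) := by
  ext v : 1
  apply ext2
  · rw [mat_0]
    conv_lhs => rw [eq_ee v]
    simp [mul_comm]
  · rw [mat_1]
    conv_lhs => rw [eq_ee v]
    simp [mul_comm]

theorem mat_mul (a b c d a' b' c' d' : ℝ) : mat a b c d * mat a' b' c' d' =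
    mat (a * a' + b * c') (a * b' + b * d') (c * a' + d * c') (c * b' + d * d') := by
  ext v : 1
  apply ext2
  · rw [mul_apply_eq_comp, mat_0, mat_0, mat_0, mat_1]; ring
  · rw [mul_apply_eq_comp, mat_1, mat_1, mat_0, mat_1]; ring

theorem star_mat (a b c d : ℝ) : star (mat a b c d) = mat a c b d := by
  rw [ContinuousLinearMap.star_eq_adjoint]
  symm
  rw [ContinuousLinearMap.eq_adjoint_iff]
  intro v w
  rw [inner2, inner2, mat_0, mat_1, mat_0, mat_1]
  ring

theorem fn_tri_0 (μ₁ μ₂ a : ℝ) (k : ℕ) (x : E2) :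
    (NF.tri μ₁ μ₂ a k).fn x 0 = μ₁ * x 0 + a * x 1 ^ k := rfl

theorem fn_tri_1 (μ₁ μ₂ a : ℝ) (k : ℕ) (x : E2) :
    (NF.tri μ₁ μ₂ a k).fn x 1 = μ₂ * x 1 := rfl

theorem fn_cx_0 (c s : ℝ) (x : E2) : (NF.cx c s).fn x 0 = c * x 0 - s * x 1 := rfl

theorem fn_cx_1 (c s : ℝ) (x : E2) : (NF.cx c s).fn x 1 = s * x 0 + c * x 1 := rfl

/-- the determinant of the normal form -/
def dt : NF → ℝ
  | .tri μ₁ μ₂ _ _ => μ₁ * μ₂
  | .cx c s => c ^ 2 + s ^ 2

theorem abs_dt (N : NF) : |dt N| = N.m1 * N.m2 := by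
  cases N with
  | tri μ₁ μ₂ a k => exact abs_mul _ _
  | cx c s =>
    show |c ^ 2 + s ^ 2| = Real.sqrt (c ^ 2 + s ^ 2) * Real.sqrt (c ^ 2 + s ^ 2)
    rw [Real.mul_self_sqrt (by positivity), abs_of_nonneg (by positivity)]

theorem hasFDerivAt_coord (i : Fin 2) (x : E2) :
    HasFDerivAt (fun y : E2 => y i) (EuclideanSpace.proj (𝕜 := ℝ) i : E2 →L[ℝ] ℝ) x :=
  (EuclideanSpace.proj (𝕜 := ℝ) i : E2 →L[ℝ] ℝ).hasFDerivAt

/-- the derivative of the normal form -/
def dN : NF → E2 → E2 →L[ℝ] E2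
  | .tri μ₁ μ₂ a k => fun x => mat μ₁ (a * (k * x 1 ^ (k - 1))) 0 μ₂
  | .cx c s => fun _ => mat c (-s) s c

theorem hasFDerivAt_fn (N : NF) (x : E2) : HasFDerivAt N.fn (dN N x) x := by
  cases N with
  | tri μ₁ μ₂ a k =>
    have h0 : HasFDerivAt (fun y : E2 => μ₁ * y 0 + a * y 1 ^ k)
        (μ₁ • EuclideanSpace.proj (𝕜 := ℝ) (0 : Fin 2) +
          (a * (k * x 1 ^ (k - 1))) • EuclideanSpace.proj (𝕜 := ℝ) (1 : Fin 2)) x := by
      have h1 := (hasFDerivAt_coord 0 x).const_mul μ₁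
      have h2 := ((hasFDerivAt_coord 1 x).pow k).const_mul a
      have h3 := h1.add h2
      refine h3.congr_fderiv ?_
      ext v
      simp
      ring
    have h1 : HasFDerivAt (fun y : E2 => μ₂ * y 1)
        ((0 : ℝ) • EuclideanSpace.proj (𝕜 := ℝ) (0 : Fin 2) +
          μ₂ • EuclideanSpace.proj (𝕜 := ℝ) (1 : Fin 2)) x := by
      refine ((hasFDerivAt_coord 1 x).const_mul μ₂).congr_fderiv ?_
      ext v
      simp
    have h2 := (h0.smul_const (ee 0)).add (h1.smul_const (ee 1))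
    refine h2.congr_of_eventuallyEq (Eventually.of_forall fun y => ?_)
    apply ext2
    · rw [fn_tri_0]; simp [ee]
    · rw [fn_tri_1]; simp [ee]
  | cx c s =>
    have h0 : HasFDerivAt (fun y : E2 => c * y 0 - s * y 1)
        (c • EuclideanSpace.proj (𝕜 := ℝ) (0 : Fin 2) +
          (-s) • EuclideanSpace.proj (𝕜 := ℝ) (1 : Fin 2)) x := by
      have h1 := (hasFDerivAt_coord 0 x).const_mul c
      have h2 := (hasFDerivAt_coord 1 x).const_mul s
      refine (h1.sub h2).congr_fderiv ?_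
      ext v
      simp
      ring
    have h1 : HasFDerivAt (fun y : E2 => s * y 0 + c * y 1)
        (s • EuclideanSpace.proj (𝕜 := ℝ) (0 : Fin 2) +
          c • EuclideanSpace.proj (𝕜 := ℝ) (1 : Fin 2)) x :=
      ((hasFDerivAt_coord 0 x).const_mul s).add ((hasFDerivAt_coord 1 x).const_mul c)
    have h2 := (h0.smul_const (ee 0)).add (h1.smul_const (ee 1))
    refine h2.congr_of_eventuallyEq (Eventually.of_forall fun y => ?_)
    apply ext2
    · rw [fn_cx_0]; simp [ee]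
    · rw [fn_cx_1]; simp [ee]

theorem det_dN (N : NF) (x : E2) : (dN N x).det = dt N := by
  cases N with
  | tri μ₁ μ₂ a k => simp only [dN, dt, det_mat]; ring
  | cx c s => simp only [dN, dt, det_mat]; ring

theorem contDiff_fn (N : NF) : ContDiff ℝ ∞ N.fn := by
  have hc : ∀ i : Fin 2, ContDiff ℝ ∞ fun x : E2 => x i := fun i =>
    (EuclideanSpace.proj (𝕜 := ℝ) i : E2 →L[ℝ] ℝ).contDiff
  rw [contDiff_euclidean]
  intro i
  cases N with
  | tri μ₁ μ₂ a k =>
    fin_cases i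
    · exact (contDiff_const.mul (hc 0)).add (contDiff_const.mul ((hc 1).pow k))
    · exact contDiff_const.mul (hc 1)
  | cx c s =>
    fin_cases i
    · exact (contDiff_const.mul (hc 0)).sub (contDiff_const.mul (hc 1))
    · exact (contDiff_const.mul (hc 0)).add (contDiff_const.mul (hc 1))

theorem contDiff_dN (N : NF) : ContDiff ℝ ∞ (dN N) := by
  have h : dN N = fderiv ℝ N.fn := funext fun x => (hasFDerivAt_fn N x).fderiv.symm
  rw [h]
  exact (contDiff_fn N).fderiv_right (m := ∞) (by simp)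

/-! ### the normal coordinate in the charts -/

variable {Γ X B : Type} [Group Γ] [MetricSpace X] [ProperSpace X] [MulAction Γ X]
  [IsIsometricSMul Γ X] [TopologicalSpace B] [CompactSpace B] [T2Space B] [MulAction Γ B]
  [ContinuousConstSMul Γ B]

variable {L : Leaf Γ X B} {o : Orb L} (n : Nor L o)

/-- the normal coordinate in the disc `e y` -/
def jj (n : Nor L o) (y : X) (u : E2) : E2 := n.x (L.e y u)

theorem jj_contDiffAt {y : X} (hy : L.em y = o.neg) {u : E2} (hu : u ∈ ball (0 : E2) 3) :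
    ContDiffAt ℝ ∞ (jj n y) u :=
  (n.smooth y hy u hu).contDiffAt (isOpen_ball.mem_nhds hu)

theorem jj_contDiffOn {y : X} (hy : L.em y = o.neg) : ContDiffOn ℝ ∞ (jj n y) (ball 0 3) :=
  n.smooth y hy

theorem jj_hasFDerivAt {y : X} (hy : L.em y = o.neg) {u : E2} (hu : u ∈ ball (0 : E2) 3) :
    HasFDerivAt (jj n y) (fderiv ℝ (jj n y) u) u :=
  ((jj_contDiffAt n hy hu).differentiableAt (by simp)).hasFDerivAt

theorem jj_det {y : X} (hy : L.em y = o.neg) {u : E2} (hu : u ∈ ball (0 : E2) 3) :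
    (fderiv ℝ (jj n y) u).det ≠ 0 := n.deriv y hy u hu

theorem jj_fderiv_contDiffAt {y : X} (hy : L.em y = o.neg) {u : E2}
    (hu : u ∈ ball (0 : E2) 3) : ContDiffAt ℝ ∞ (fderiv ℝ (jj n y)) u :=
  (jj_contDiffAt n hy hu).fderiv_right (m := ∞) (by simp)

theorem jj_tau {y z : X} {u : E2} (hu : u ∈ L.dm y z) : jj n z (L.τ y z u) = jj n y u := by
  unfold jj; rw [e_tau_dm L hu]

theorem fderiv_jj_tau {y z : X} (hy : L.em y = o.neg) (hz : L.em z = o.neg) {u : E2}
    (hu : u ∈ L.dm y z) : fderiv ℝ (jj n y) u =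
      (fderiv ℝ (jj n z) (L.τ y z u)).comp (fderiv ℝ (L.τ y z) u) := by
  have h1 : HasFDerivAt (L.τ y z) (fderiv ℝ (L.τ y z) u) u :=
    ((tau_contDiffAt L (hy.trans hz.symm) hu).differentiableAt (by simp)).hasFDerivAt
  have h2 := (jj_hasFDerivAt n hz (tau_mem_dm L hu).1).comp u h1
  have h3 : jj n y =ᶠ[𝓝 u] (jj n z ∘ L.τ y z) := by
    filter_upwards [(isOpen_dm L y z).mem_nhds hu] with v hv
    exact (jj_tau n hv).symm
  rw [h3.fderiv_eq]
  exact h2.fderiv

theorem jj_inv_smul {y : X} (hy : L.em y = o.neg) {u : E2} (hu : u ∈ ball (0 : E2) 3) :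
    jj n (o.β⁻¹ • y) u = n.N.fn (jj n y u) := by
  unfold jj
  rw [L.e_smul o.β⁻¹ y u (ball_subset_closedBall hu)]
  exact n.equiv _ (e_ne_neg o hy hu)

theorem fderiv_jj_inv_smul {y : X} (hy : L.em y = o.neg) {u : E2} (hu : u ∈ ball (0 : E2) 3) :
    fderiv ℝ (jj n (o.β⁻¹ • y)) u = (dN n.N (jj n y u)).comp (fderiv ℝ (jj n y) u) := by
  have h2 := (hasFDerivAt_fn n.N (jj n y u)).comp u (jj_hasFDerivAt n hy hu)
  have h3 : jj n (o.β⁻¹ • y) =ᶠ[𝓝 u] (n.N.fn ∘ jj n y) := by
    filter_upwards [isOpen_ball.mem_nhds hu] with v hv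
    exact jj_inv_smul n hy hv
  rw [h3.fderiv_eq]
  exact h2.fderiv

/-! ### contraction -/

/-- perturbed contraction of the line -/
theorem tendsto_of_rec {u e : ℕ → ℝ} {q : ℝ} (hq : |q| < 1)
    (h : ∀ m, u (m + 1) = q * u m + e m) (he : Tendsto e atTop (𝓝 0)) :
    Tendsto u atTop (𝓝 0) := by
  rw [Metric.tendsto_atTop] at he ⊢
  intro ε hε
  have hq1 : 0 < 1 - |q| := by linarith
  obtain ⟨M, hM⟩ := he (ε / 2 * (1 - |q|)) (by positivity)
  have hb : ∀ j : ℕ, |u (M + j)| ≤ |q| ^ j * |u M| + ε / 2 := by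
    intro j
    induction j with
    | zero => simp; positivity
    | succ j ih =>
      have h1 : |e (M + j)| ≤ ε / 2 * (1 - |q|) := by
        have := hM (M + j) (by omega)
        rw [Real.dist_eq, sub_zero] at this
        exact this.le
      rw [← add_assoc, h (M + j)]
      calc |q * u (M + j) + e (M + j)| ≤ |q| * |u (M + j)| + |e (M + j)| := by
            rw [← abs_mul]; exact abs_add_le _ _
        _ ≤ |q| * (|q| ^ j * |u M| + ε / 2) + ε / 2 * (1 - |q|) := by gcongr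
        _ = _ := by ring
  have hz : Tendsto (fun j : ℕ => |q| ^ j * |u M|) atTop (𝓝 0) := by
    have := (tendsto_pow_atTop_nhds_zero_of_lt_one (abs_nonneg q) hq).mul_const |u M|
    simpa using this
  obtain ⟨J, hJ⟩ := (Metric.tendsto_atTop.1 hz) (ε / 2) (by positivity)
  refine ⟨M + J, fun m hm => ?_⟩
  obtain ⟨j, rfl⟩ : ∃ j, m = M + j := ⟨m - M, by omega⟩
  have h1 := hJ j (by omega)
  rw [Real.dist_eq, sub_zero] at h1 ⊢
  have h2 := hb j
  have h3 := le_abs_self (|q| ^ j * |u M|)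
  linarith

theorem tendsto_pi2 {u : ℕ → E2} (h0 : Tendsto (fun m => u m 0) atTop (𝓝 0))
    (h1 : Tendsto (fun m => u m 1) atTop (𝓝 0)) : Tendsto u atTop (𝓝 0) := by
  have h : u = fun m => u m 0 • ee 0 + u m 1 • ee 1 := funext fun m => eq_ee (u m)
  rw [h]
  have := (h0.smul_const (ee 0)).add (h1.smul_const (ee 1))
  simpa using this

/-- backward orbits of the normal form tend to the fixed point -/
theorem tendsto_of_fn {N : NF} (hN : N.OK) {u : ℕ → E2} (h : ∀ m, N.fn (u (m + 1)) = u m) :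
    Tendsto u atTop (𝓝 0) := by
  cases N with
  | tri μ₁ μ₂ a k =>
    obtain ⟨h2, h1, ha⟩ := hN
    have hμ2 : μ₂ ≠ 0 := by
      rintro rfl
      rw [abs_zero] at h2
      linarith
    have hμ1 : μ₁ ≠ 0 := by
      rintro rfl
      rw [abs_zero] at h1
      linarith
    have e1 : ∀ m, u (m + 1) 1 = μ₂⁻¹ * u m 1 + 0 := by
      intro m
      have := congrArg (fun v : E2 => v 1) (h m)
      simp only [fn_tri_1] at this
      rw [← this]; field_simp; ring
    have t1 : Tendsto (fun m => u m 1) atTop (𝓝 0) := by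
      refine tendsto_of_rec (q := μ₂⁻¹) ?_ e1 tendsto_const_nhds
      rw [abs_inv]
      exact inv_lt_one_of_one_lt₀ h2
    have e0 : ∀ m, u (m + 1) 0 = μ₁⁻¹ * u m 0 + (-(μ₁⁻¹ * a * u (m + 1) 1 ^ k)) := by
      intro m
      have := congrArg (fun v : E2 => v 0) (h m)
      simp only [fn_tri_0] at this
      rw [← this]; field_simp; ring
    refine tendsto_pi2 (tendsto_of_rec (q := μ₁⁻¹) ?_ e0 ?_) t1
    · rw [abs_inv]
      exact inv_lt_one_of_one_lt₀ (h2.trans_le h1)
    · rcases eq_or_ne a 0 with rfl | ha0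
      · simp
      · have hk : k ≠ 0 := by
          have := (ha ha0).1
          omega
        have t2 := ((t1.comp (tendsto_add_atTop_nat 1)).pow k).const_mul (μ₁⁻¹ * a)
        have t3 := t2.neg
        simpa [hk] using t3
  | cx c s =>
    obtain ⟨hs, hcs⟩ := hN
    have hr : ∀ m, (u (m + 1) 0 ^ 2 + u (m + 1) 1 ^ 2) =
        (c ^ 2 + s ^ 2)⁻¹ * (u m 0 ^ 2 + u m 1 ^ 2) + 0 := by
      intro m
      have e0 := congrArg (fun v : E2 => v 0) (h m)
      have e1 := congrArg (fun v : E2 => v 1) (h m)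
      simp only [fn_cx_0, fn_cx_1] at e0 e1
      rw [← e0, ← e1]
      have : c ^ 2 + s ^ 2 ≠ 0 := by positivity
      field_simp
      ring
    have t : Tendsto (fun m => u m 0 ^ 2 + u m 1 ^ 2) atTop (𝓝 0) := by
      refine tendsto_of_rec (q := (c ^ 2 + s ^ 2)⁻¹) ?_ hr tendsto_const_nhds
      rw [abs_inv, abs_of_pos (by positivity)]
      exact inv_lt_one_of_one_lt₀ hcs
    have hsq : ∀ (f : ℕ → ℝ), (∀ m, f m ^ 2 ≤ u m 0 ^ 2 + u m 1 ^ 2) →
        Tendsto f atTop (𝓝 0) := by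
      intro f hf
      have h1 : Tendsto (fun m => f m ^ 2) atTop (𝓝 0) :=
        squeeze_zero (fun m => sq_nonneg _) hf t
      have h2 := (Real.continuous_sqrt.tendsto 0).comp h1
      rw [Real.sqrt_zero] at h2
      have h3 : (Real.sqrt ∘ fun m => f m ^ 2) = fun m => |f m| :=
        funext fun m => Real.sqrt_sq_eq_abs _
      rw [h3] at h2
      exact (tendsto_zero_iff_abs_tendsto_zero f).2 h2
    exact tendsto_pi2 (hsq _ fun m => by nlinarith [sq_nonneg (u m 1)])
      (hsq _ fun m => by nlinarith [sq_nonneg (u m 0)])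


theorem x_inv_smul_tendsto {η : B} (h : η ≠ o.neg) :
    Tendsto (fun m : ℕ => n.x (o.β ^ m • η)) atTop (𝓝 0) := by
  refine tendsto_of_fn n.ok fun m => ?_
  rw [← n.equiv _ (pow_smul_ne_neg o (m + 1) h), pow_succ', mul_smul, inv_smul_smul]

include n in
/-- `β^m η → β^+` -/
theorem pow_smul_tendsto {η : B} (h : η ≠ o.neg) :
    Tendsto (fun m : ℕ => o.β ^ m • η) atTop (𝓝 o.pos) := by
  have h1 := (n.inv_cont.tendsto 0).comp (x_inv_smul_tendsto n h)
  have h2 : n.inv 0 = o.pos := by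
    rw [← n.base]; exact n.inv_left _ (pos_ne_neg o)
  rw [h2] at h1
  refine h1.congr fun m => ?_
  exact n.inv_left _ (pow_smul_ne_neg o m h)

/-- images of open sets under the charts -/
theorem isOpen_image_of (L : Leaf Γ X B) (x : X) {O : Set E2} (hO : IsOpen O)
    (hO3 : O ⊆ ball (0 : E2) 3) : IsOpen (L.e x '' O) := by
  have h1 : L.e x '' O = L.e x '' ball 0 3 \ L.e x '' (closedBall 0 3 \ O) := by
    ext η
    constructor
    · rintro ⟨u, hu, rfl⟩
      refine ⟨⟨u, hO3 hu, rfl⟩, ?_⟩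
      rintro ⟨v, hv, he⟩
      have := L.e_inj x hv.1 (ball_subset_closedBall (hO3 hu)) he
      exact hv.2 (this ▸ hu)
    · rintro ⟨⟨u, hu, rfl⟩, h2⟩
      refine ⟨u, ?_, rfl⟩
      by_contra hc
      exact h2 ⟨u, ⟨ball_subset_closedBall hu, hc⟩, rfl⟩
  rw [h1]
  have hc : IsCompact (closedBall (0 : E2) 3 \ O) := (isCompact_closedBall 0 3).diff hO
  exact (isOpen_image L x).sdiff
    ((hc.image_of_continuousOn ((e_contOn L x).mono sdiff_subset)).isClosed)

include n in
/-- large iterates of a point of the leaf are near the axis frame -/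
theorem eventually_mem {y : X} (hy : L.em y = o.neg) {u : E2} (hu : u ∈ ball (0 : E2) 3)
    {O : Set E2} (hO : IsOpen O) (h0 : (0 : E2) ∈ O) (hO3 : O ⊆ ball (0 : E2) 3) :
    ∀ᶠ m : ℕ in atTop, u ∈ L.dm (o.β ^ m • y) o.x ∧ L.τ (o.β ^ m • y) o.x u ∈ O := by
  have h1 := pow_smul_tendsto n (e_ne_neg o hy hu)
  have h2 : L.e o.x '' O ∈ 𝓝 o.pos := by
    refine (isOpen_image_of L o.x hO hO3).mem_nhds ⟨0, h0, ?_⟩
    rw [L.e_zero]; rfl
  filter_upwards [h1 h2] with m hm
  obtain ⟨v, hv, he⟩ := hm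
  have h3 : L.e (o.β ^ m • y) u = L.e o.x v := by
    rw [L.e_smul _ y u (ball_subset_closedBall hu), he]
  refine ⟨⟨hu, v, hO3 hv, h3.symm⟩, ?_⟩
  rw [tau_eq_of L (ball_subset_closedBall (hO3 hv)) h3.symm]
  exact hv


/-! ### the density -/

variable [MeasurableSpace B] [BorelSpace B] (A : Area L)

/-- the density of the area in the normal coordinate -/
def dens (n : Nor L o) (y : X) (u : E2) : ℝ :=
  Real.exp (-A.h * L.lv y) * A.s y u / |(fderiv ℝ (jj n y) u).det|

theorem dens_pos {y : X} (hy : L.em y = o.neg) {u : E2} (hu : u ∈ ball (0 : E2) 3) :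
    0 < dens A n y u :=
  div_pos (mul_pos (Real.exp_pos _) (A.s_pos y u hu)) (abs_pos.2 (jj_det n hy hu))

theorem dens_tau {y z : X} (hy : L.em y = o.neg) (hz : L.em z = o.neg) {u : E2}
    (hu : u ∈ L.dm y z) : dens A n z (L.τ y z u) = dens A n y u := by
  unfold dens
  rw [fderiv_jj_tau n hy hz hu, det_comp', abs_mul, A.s_trans y z (hy.trans hz.symm) u hu]
  have h1 : |(fderiv ℝ (jj n z) (L.τ y z u)).det| ≠ 0 :=
    abs_ne_zero.2 (jj_det n hz (tau_mem_dm L hu).1)
  have h2 : |(fderiv ℝ (L.τ y z) u).det| ≠ 0 := by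
    have h3 := jj_det n hy hu.1
    rw [fderiv_jj_tau n hy hz hu, det_comp'] at h3
    exact abs_ne_zero.2 (right_ne_zero_of_mul h3)
  have h4 : Real.exp (-A.h * L.lv z) = Real.exp (-A.h * L.lv y) *
      Real.exp (A.h * (L.lv y - L.lv z)) := by
    rw [← Real.exp_add]; congr 1; ring
  rw [h4]
  field_simp

theorem dens_inv_smul {y : X} (hy : L.em y = o.neg) {u : E2} (hu : u ∈ ball (0 : E2) 3) :
    dens A n (o.β⁻¹ • y) u * |dt n.N| = Real.exp (A.h * o.l) * dens A n y u := by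
  unfold dens
  have h0 : L.lv (o.β⁻¹ • y) = L.lv y - o.l := by
    have := lv_smul_β o (em_inv_smul o hy)
    rw [smul_inv_smul] at this
    linarith
  have hd : |dt n.N| ≠ 0 := by
    have h3 := jj_det n (em_inv_smul o hy) hu
    rw [fderiv_jj_inv_smul n hy hu, det_comp', det_dN] at h3
    exact abs_ne_zero.2 (left_ne_zero_of_mul h3)
  rw [fderiv_jj_inv_smul n hy hu, det_comp', abs_mul, det_dN, A.s_smul o.β⁻¹ y u hu, h0]
  have h1 : |(fderiv ℝ (jj n y) u).det| ≠ 0 := abs_ne_zero.2 (jj_det n hy hu)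
  have h4 : Real.exp (-A.h * (L.lv y - o.l)) = Real.exp (A.h * o.l) *
      Real.exp (-A.h * L.lv y) := by
    rw [← Real.exp_add]; congr 1; ring
  rw [h4]
  field_simp

omit [MeasurableSpace B] [BorelSpace B] in
/-- two frames with the same end points -/
theorem zero_mem_dm {y z : X} (h : L.ep y = L.ep z) : (0 : E2) ∈ L.dm y z := by
  refine ⟨mem_ball_self (by norm_num), 0, mem_ball_self (by norm_num), ?_⟩
  rw [L.e_zero, L.e_zero, h]

omit [MeasurableSpace B] [BorelSpace B] in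
theorem tau_zero {y z : X} (h : L.ep y = L.ep z) : L.τ y z 0 = 0 := by
  refine tau_eq_of L (mem_closedBall_self (by norm_num)) ?_
  rw [L.e_zero, L.e_zero, h]

/-- (a) of Part 1: the product of the eigenvalues -/
theorem abs_dt_eq : |dt n.N| = Real.exp (A.h * o.l) := by
  have hx : L.em o.x = o.neg := rfl
  have hp : L.ep (o.β⁻¹ • o.x) = L.ep o.x := by
    rw [ep_smul]; exact inv_smul_pos o
  have h1 := dens_inv_smul n A hx (u := 0) (mem_ball_self (by norm_num))
  have h2 := dens_tau n A (em_inv_smul o hx) hx (zero_mem_dm hp)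
  rw [tau_zero hp] at h2
  rw [← h2, mul_comm] at h1
  exact mul_right_cancel₀ (dens_pos n A hx (mem_ball_self (by norm_num))).ne' h1

theorem m1_mul_m2 : n.N.m1 * n.N.m2 = Real.exp (A.h * o.l) := by
  rw [← abs_dt, abs_dt_eq n A]


theorem dens_smul {y : X} (hy : L.em y = o.neg) {u : E2} (hu : u ∈ ball (0 : E2) 3) :
    dens A n (o.β • y) u = dens A n y u := by
  have h1 := dens_inv_smul n A (em_smul_β o hy) hu
  rw [inv_smul_smul, abs_dt_eq n A, mul_comm] at h1
  exact (mul_left_cancel₀ (Real.exp_pos _).ne' h1).symm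

theorem dens_pow_smul (m : ℕ) {y : X} (hy : L.em y = o.neg) {u : E2}
    (hu : u ∈ ball (0 : E2) 3) : dens A n (o.β ^ m • y) u = dens A n y u := by
  induction m with
  | zero => simp
  | succ m ih => rw [pow_succ', mul_smul, dens_smul n A (em_pow_smul o m hy) hu, ih]

theorem dens_continuousOn {y : X} (hy : L.em y = o.neg) :
    ContinuousOn (dens A n y) (ball 0 3) := by
  have h1 : ContinuousOn (fun u => (fderiv ℝ (jj n y) u).det) (ball 0 3) := fun u hu =>
    (continuous_det.continuousAt.comp (jj_fderiv_contDiffAt n hy hu).continuousAt).continuousWithinAt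
  exact (continuousOn_const.mul (A.s_smooth y).continuousOn).div h1.abs
    fun u hu => abs_ne_zero.2 (jj_det n hy hu)

/-- THE DENSITY OF THE AREA IS CONSTANT in the normal coordinate -/
theorem dens_eq {y : X} (hy : L.em y = o.neg) {u : E2} (hu : u ∈ ball (0 : E2) 3) :
    dens A n y u = dens A n o.x 0 := by
  by_contra hne
  have hx : L.em o.x = o.neg := rfl
  have hc := (dens_continuousOn n A hx).continuousAt
    (isOpen_ball.mem_nhds (mem_ball_self (by norm_num : (0:ℝ) < 3)))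
  have h1 : ∀ᶠ v in 𝓝 (0 : E2), dens A n o.x v ≠ dens A n y u :=
    hc.eventually_ne (Ne.symm hne)
  obtain ⟨O, hO, hOo, h0⟩ := _root_.mem_nhds_iff.1 h1
  obtain ⟨m, hm1, hm2⟩ := (eventually_mem n hy hu (hOo.inter isOpen_ball)
    ⟨h0, mem_ball_self (by norm_num : (0:ℝ) < 3)⟩ inter_subset_right).exists
  have h2 := dens_tau n A (em_pow_smul o m hy) hx hm1
  rw [dens_pow_smul n A m hy hu] at h2
  exact hO hm2.1 h2

/-- the constant -/
def dc (n : Nor L o) (A : Area L) : ℝ := dens A n o.x 0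

theorem dc_pos : 0 < dc n A := dens_pos n A rfl (mem_ball_self (by norm_num))

theorem area_eq {y : X} (hy : L.em y = o.neg) {u : E2} (hu : u ∈ ball (0 : E2) 3) :
    Real.exp (-A.h * L.lv y) * A.s y u = dc n A * |(fderiv ℝ (jj n y) u).det| := by
  have h1 : dens A n y u = dc n A := dens_eq n A hy hu
  rw [← h1]
  unfold dens
  rw [div_mul_cancel₀]
  exact abs_ne_zero.2 (jj_det n hy hu)

end Vale.Agent.P207.N3.H854
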