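import Vale.Agent.P207.N3.H503.In

/-!
N3-P13T: the LOCAL FORM of the stable tensor at a closed orbit (produced by helper503 from
`DivIn` and `LimDir`, consumed by helper854 for `LevForm`).
-/

open Set Filter Topology Metric
open scoped ContDiff

noncomputable section

namespace Vale.Agent.P207.N3.H854

open Vale.Agent.P207.N3

variable {Γ X B : Type} [Group Γ] [MetricSpace X] [ProperSpace X] [MulAction Γ X]
  [IsIsometricSMul Γ X] [TopologicalSpace B] [CompactSpace B] [T2Space B] [MulAction Γ B]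
  [ContinuousConstSMul Γ B]

/-- tensor square -/
def sq (w : E2) : E2 →L[ℝ] E2 := (innerSL ℝ w).smulRight w

theorem sq_apply (w v : E2) : sq w v = inner ℝ w v • w := rfl

/-- near `β^+`, in the normal coordinate `x`, the tensor is `W(x) + b₀(x_i) e_{1-i} e_{1-i}ᵀ`,
`W` smooth, `b₀` continuous -/
def LocForm {L : Leaf Γ X B} (T : Tens L) {o : Orb L} (n : Nor L o) (i : Fin 2) : Prop :=
  ∃ δ > 0, ∃ (b₀ : ℝ → ℝ) (W : E2 → E2 →L[ℝ] E2), ContinuousOn b₀ (Ioo (-δ) δ) ∧
    ContDiffOn ℝ ∞ W (ball 0 δ) ∧ ∀ u ∈ ball (0 : E2) 3, ‖n.g u‖ < δ →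
      conj (fderiv ℝ n.g u) (T.N o.x u) = W (n.g u) + b₀ (n.g u i) • sq (bas (1 - i))

end Vale.Agent.P207.N3.H854
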