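import Vale.Agent.P207.N3.H854.Loc
import Vale.Agent.P207.N3.H80.Coh1

/-!
N3-P13T (helper854): THE LEVEL FORM ON THE WHOLE LEAF from the local form at one closed orbit:
`lev_of_loc`.
-/

set_option maxSynthPendingDepth 3

open Set Filter Topology Metric
open scoped ContDiff

noncomputable section

namespace Vale.Agent.P207.N3.H854

open Vale.Agent.P207.N3 Vale.Agent.P207.N3.H545
open Vale.Agent.P207.N3.H790 (NF)

/-- `x_i ∘ N = μ x_i`, and `e_{1-i}` is an eigenvector of all `DN(x)` -/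
structure DirN (N : NF) (i : Fin 2) (μ κ : ℝ) : Prop where
  fn : ∀ x, N.fn x i = μ * x i
  dN : ∀ x, dN N x (ee (1 - i)) = κ • ee (1 - i)
  one_lt : 1 < |μ|
  dt : |μ * κ| = |dt N|

theorem dirN_one {μ₁ μ₂ a : ℝ} {k : ℕ} (h : (NF.tri μ₁ μ₂ a k).OK) :
    DirN (.tri μ₁ μ₂ a k) 1 μ₂ μ₁ where
  fn := fun x => rfl
  dN := fun x => by
    rw [sub_self]
    apply ext2
    · simp only [dN, mat_0, PiLp.smul_apply, ee_00, ee_01, smul_eq_mul]; ring
    · simp only [dN, mat_1, PiLp.smul_apply, ee_00, ee_01, smul_eq_mul]; ring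
  one_lt := h.1
  dt := by rw [mul_comm]; rfl

theorem dirN_zero {μ₁ μ₂ : ℝ} {k : ℕ} (h : (NF.tri μ₁ μ₂ 0 k).OK) :
    DirN (.tri μ₁ μ₂ 0 k) 0 μ₁ μ₂ where
  fn := fun x => by rw [fn_tri_0]; ring
  dN := fun x => by
    rw [sub_zero]
    apply ext2
    · simp only [dN, mat_0, PiLp.smul_apply, ee_10, ee_11, smul_eq_mul]; ring
    · simp only [dN, mat_1, PiLp.smul_apply, ee_10, ee_11, smul_eq_mul]; ring
  one_lt := h.1.trans_le h.2.1
  dt := rfl

/-! ### the entry `(1 - i, 1 - i)` -/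

/-- the entry `(1 - i, 1 - i)` of a matrix -/
def en (i : Fin 2) : (E2 →L[ℝ] E2) →L[ℝ] ℝ :=
  (EuclideanSpace.proj (𝕜 := ℝ) (1 - i) : E2 →L[ℝ] ℝ).comp
    (ContinuousLinearMap.apply ℝ E2 (ee (1 - i)))

theorem en_apply (i : Fin 2) (M : E2 →L[ℝ] E2) : en i M = M (ee (1 - i)) (1 - i) := rfl

theorem en_sq (i : Fin 2) : en i (sq (ee (1 - i))) = 1 := by
  rw [en_apply, sq_apply, PiLp.smul_apply, ee_same, smul_eq_mul, mul_one, real_inner_self_eq_norm_sq]
  simp [ee]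

variable {Γ X B : Type} [Group Γ] [MetricSpace X] [ProperSpace X] [MulAction Γ X]
  [IsIsometricSMul Γ X] [TopologicalSpace B] [CompactSpace B] [T2Space B] [MulAction Γ B]
  [ContinuousConstSMul Γ B]

variable {L : Leaf Γ X B} {o : Orb L} {n : Nor L o} {T : Tens L} {i : Fin 2} {μ κ : ℝ}

/-! ### the cohomological equation of `b₀` -/

/-- the local form in the variable `x` -/
theorem TL_of_loc {δ : ℝ} {b₀ : ℝ → ℝ} {W : E2 → E2 →L[ℝ] E2}
    (h : ∀ u ∈ ball (0 : E2) 3, ‖n.g u‖ < δ →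
      conj (fderiv ℝ n.g u) (T.N o.x u) = W (n.g u) + b₀ (n.g u i) • sq (bas (1 - i)))
    {x : E2} (hx : x ∈ jj n o.x '' ball 0 3) (hxδ : ‖x‖ < δ) :
    TL T n x = W x + b₀ (x i) • sq (ee (1 - i)) := by
  have hm := ji_mem n rfl hx
  have e1 : n.g (ji n o.x x) = x := jj_ji n rfl hx
  have := h _ hm (by rw [e1]; exact hxδ)
  rw [e1] at this
  exact this

theorem rel_of_loc (hD : DirN n.N i μ κ) {δ : ℝ} (hδ : 0 < δ) {b₀ : ℝ → ℝ}
    {W : E2 → E2 →L[ℝ] E2} (hb : ContinuousOn b₀ (Ioo (-δ) δ)) (hW : ContDiffOn ℝ ∞ W (ball 0 δ))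
    (h : ∀ u ∈ ball (0 : E2) 3, ‖n.g u‖ < δ →
      conj (fderiv ℝ n.g u) (T.N o.x u) = W (n.g u) + b₀ (n.g u i) • sq (bas (1 - i))) :
    ∃ (G p : ℝ → ℝ) (P : Polynomial ℝ) (r : ℝ), 0 < r ∧ Continuous G ∧ ContDiff ℝ ∞ p ∧
      (∀ s, G (μ * s) = κ ^ 2 * G s + P.eval s) ∧ ∀ s, |s| < r → b₀ s = G s + p s := by
  have hx0 : L.em o.x = o.neg := rfl
  obtain hK := eventually_of_smNear (TL_cocycle n T)
  set K : E2 → E2 →L[ℝ] E2 := fun x => TL T n (n.N.fn x) - conj (dN n.N x) (TL T n x) with hKdef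
  have hfn0 : n.N.fn 0 = 0 := H790.NF.fn_zero n.ok
  have hfnc : ContinuousAt n.N.fn 0 := (contDiff_fn n.N).continuous.continuousAt
  have hT : ∀ᶠ x in 𝓝 (0 : E2), x ∈ jj n o.x '' ball 0 3 :=
    (isOpen_jj_image n hx0 isOpen_ball subset_rfl).mem_nhds (zero_mem_target n)
  have hB : ∀ᶠ x in 𝓝 (0 : E2), x ∈ ball (0 : E2) δ := isOpen_ball.mem_nhds (mem_ball_self hδ)
  have hTB := hT.and hB
  have hTB' : ∀ᶠ x in 𝓝 (0 : E2), n.N.fn x ∈ jj n o.x '' ball 0 3 ∧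
      n.N.fn x ∈ ball (0 : E2) δ := by
    have := hfnc.eventually (by rw [hfn0]; exact hTB)
    exact this
  have hall := (hK.and hTB).and hTB'
  have hline : Tendsto (fun s : ℝ => s • ee i) (𝓝 0) (𝓝 0) := by
    have : Continuous fun s : ℝ => s • ee i := by fun_prop
    have h0 := this.tendsto 0
    simpa using h0
  obtain ⟨ρ, hρ, hball⟩ := Metric.eventually_nhds_iff_ball.1 (hline.eventually hall)
  set r : ℝ := min ρ δ with hr
  have hr0 : 0 < r := lt_min hρ hδ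
  -- the smooth right hand side
  set S : ℝ → ℝ := fun s => en i (K (s • ee i)) - en i (W (n.N.fn (s • ee i))) +
    en i (conj (dN n.N (s • ee i)) (W (s • ee i))) with hS
  have hmem : ∀ s ∈ Ioo (-r) r, s ∈ ball (0 : ℝ) ρ := by
    intro s hs
    rw [mem_ball, Real.dist_eq, sub_zero]
    exact (abs_lt.2 hs).trans_le (min_le_left _ _)
  have hlin : ContDiff ℝ ∞ fun s : ℝ => s • ee i := contDiff_id.smul contDiff_const
  have hSc : ContDiffOn ℝ ∞ S (Ioo (-r) r) := by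
    intro s hs
    obtain ⟨⟨hk, -, hb1⟩, -, hb2⟩ := hball s (hmem s hs)
    have w1 : ContDiffAt ℝ ∞ W (s • ee i) := (hW _ hb1).contDiffAt (isOpen_ball.mem_nhds hb1)
    have w2 : ContDiffAt ℝ ∞ W (n.N.fn (s • ee i)) :=
      (hW _ hb2).contDiffAt (isOpen_ball.mem_nhds hb2)
    have a1 : ContDiffAt ℝ ∞ (fun s : ℝ => en i (K (s • ee i))) s :=
      (en i).contDiff.contDiffAt.comp s (hk.comp s hlin.contDiffAt)
    have a2 : ContDiffAt ℝ ∞ (fun s : ℝ => en i (W (n.N.fn (s • ee i)))) s :=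
      (en i).contDiff.contDiffAt.comp s
        (w2.comp s ((contDiff_fn n.N).contDiffAt.comp s hlin.contDiffAt))
    have a3 : ContDiffAt ℝ ∞ (fun s : ℝ => en i (conj (dN n.N (s • ee i)) (W (s • ee i)))) s :=
      (en i).contDiff.contDiffAt.comp s (contDiffAt_conj
        ((contDiff_dN n.N).contDiffAt.comp s hlin.contDiffAt) (w1.comp s hlin.contDiffAt))
    exact ((a1.sub a2).add a3).contDiffWithinAt
  have hline_i : ∀ s : ℝ, (s • ee i) i = s := fun s => by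
    rw [PiLp.smul_apply, ee_same, smul_eq_mul, mul_one]
  have hrel : ∀ s, |μ * s| < r → b₀ (μ * s) = κ ^ 2 * b₀ s + S s := by
    intro s hs
    have hs' : |s| < r := by
      refine lt_of_le_of_lt ?_ hs
      rw [abs_mul]
      exact le_mul_of_one_le_left (abs_nonneg s) hD.one_lt.le
    obtain ⟨⟨-, ht1, hb1⟩, ht2, hb2⟩ := hball s (hmem s (abs_lt.1 hs'))
    rw [mem_ball_zero_iff] at hb1 hb2
    have e1 := TL_of_loc h ht1 hb1
    have e2 := TL_of_loc h ht2 hb2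
    rw [hline_i] at e1
    rw [hD.fn, hline_i] at e2
    have e3 : K (s • ee i) = TL T n (n.N.fn (s • ee i)) -
      conj (dN n.N (s • ee i)) (TL T n (s • ee i)) := rfl
    rw [e1, e2, conj_add, conj_smul, conj_sq, hD.dN, sq_smul] at e3
    have e4 := congrArg (en i) e3
    simp only [map_sub, map_add, map_smul, en_sq, smul_eq_mul, mul_one] at e4
    rw [hS]
    simp only
    linarith
  obtain ⟨G, p, P, hG, hp, hGP, hGp⟩ := H80.homogenize hD.one_lt hr0
    (hb.mono (Ioo_subset_Ioo (neg_le_neg (min_le_right _ _)) (min_le_right _ _))) hSc hrel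
  refine ⟨G, p, P, r / 3, by positivity, hG, hp, hGP, fun s hs => hGp s ?_⟩
  have := abs_lt.1 hs
  exact ⟨this.1, this.2⟩

/-! ### the smooth part on the whole leaf -/

/-- the tensor minus its singular part, in the normal coordinate -/
def QT (T : Tens L) (n : Nor L o) (i : Fin 2) (G : ℝ → ℝ) (y : X) (u : E2) : E2 →L[ℝ] E2 :=
  MT T n y u - G (jj n y u i) • sq (ee (1 - i))

theorem QT_tau (G : ℝ → ℝ) {y z : X} (hy : L.em y = o.neg) (hz : L.em z = o.neg) {u : E2}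
    (hu : u ∈ L.dm y z) (h : ContDiffAt ℝ ∞ (QT T n i G z) (L.τ y z u)) :
    ContDiffAt ℝ ∞ (QT T n i G y) u := by
  have h1 : QT T n i G y =ᶠ[𝓝 u] fun u => QT T n i G z (L.τ y z u) -
      conj (fderiv ℝ (jj n z) (L.τ y z u)) (T.R y z u) := by
    filter_upwards [(isOpen_dm L y z).mem_nhds hu] with v hv
    unfold QT
    rw [MT_tau n T hy hz hv, jj_tau n hv]
    abel
  refine ContDiffAt.congr_of_eventuallyEq ?_ h1
  exact (h.comp u (tau_contDiffAt L (hy.trans hz.symm) hu)).sub (corr_contDiffAt n T hy hz hu)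

theorem contDiffAt_coord {y : X} (hy : L.em y = o.neg) (i : Fin 2) {u : E2}
    (hu : u ∈ ball (0 : E2) 3) : ContDiffAt ℝ ∞ (fun u => jj n y u i) u :=
  (EuclideanSpace.proj (𝕜 := ℝ) i : E2 →L[ℝ] ℝ).contDiff.contDiffAt.comp u
    (jj_contDiffAt n hy hu)

theorem QT_smul (hD : DirN n.N i μ κ) {G : ℝ → ℝ} {P : Polynomial ℝ}
    (hG : ∀ s, G (μ * s) = κ ^ 2 * G s + P.eval s) {y : X} (hy : L.em y = o.neg) {u : E2}
    (hu : u ∈ ball (0 : E2) 3) (h : ContDiffAt ℝ ∞ (QT T n i G (o.β • y)) u) :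
    ContDiffAt ℝ ∞ (QT T n i G y) u := by
  have hy' := em_smul_β o hy
  have h1 : QT T n i G y =ᶠ[𝓝 u] fun u =>
      conj (dN n.N (jj n (o.β • y) u)) (QT T n i G (o.β • y) u) -
        (P.eval (jj n (o.β • y) u i)) • sq (ee (1 - i)) := by
    filter_upwards [isOpen_ball.mem_nhds hu] with v hv
    have e1 := MT_inv_smul n T hy' hv
    have e2 := jj_inv_smul n hy' hv
    rw [inv_smul_smul] at e1 e2
    unfold QT
    rw [e1, e2, hD.fn, hG, conj_sub, conj_smul, conj_sq, hD.dN, sq_smul, smul_smul, add_smul,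
      mul_comm (κ ^ 2)]
    abel
  refine ContDiffAt.congr_of_eventuallyEq ?_ h1
  have c1 : ContDiffAt ℝ ∞ (fun u => dN n.N (jj n (o.β • y) u)) u :=
    (contDiff_dN n.N).contDiffAt.comp u (jj_contDiffAt n hy' hu)
  have c2 : ContDiffAt ℝ ∞ (fun u => P.eval (jj n (o.β • y) u i)) u := by
    have h3 : ContDiff ℝ ∞ (fun s : ℝ => P.eval s) := by
      have := P.contDiff_aeval (𝕜 := ℝ) ∞
      simpa [Polynomial.coe_aeval_eq_eval] using this
    exact h3.contDiffAt.comp u (contDiffAt_coord hy' i hu)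
  exact (contDiffAt_conj c1 h).sub (c2.smul contDiffAt_const)

theorem QT_pow_smul (hD : DirN n.N i μ κ) {G : ℝ → ℝ} {P : Polynomial ℝ}
    (hG : ∀ s, G (μ * s) = κ ^ 2 * G s + P.eval s) (m : ℕ) {y : X} (hy : L.em y = o.neg) {u : E2}
    (hu : u ∈ ball (0 : E2) 3) (h : ContDiffAt ℝ ∞ (QT T n i G (o.β ^ m • y)) u) :
    ContDiffAt ℝ ∞ (QT T n i G y) u := by
  induction m with
  | zero => simpa using h
  | succ m ih =>
    rw [pow_succ', mul_smul] at h
    exact ih (QT_smul hD hG (em_pow_smul o m hy) hu h)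

theorem QT_smooth (hD : DirN n.N i μ κ) {δ : ℝ} (hδ : 0 < δ) {b₀ : ℝ → ℝ}
    {W : E2 → E2 →L[ℝ] E2} (hW : ContDiffOn ℝ ∞ W (ball 0 δ))
    (h : ∀ u ∈ ball (0 : E2) 3, ‖n.g u‖ < δ →
      conj (fderiv ℝ n.g u) (T.N o.x u) = W (n.g u) + b₀ (n.g u i) • sq (bas (1 - i)))
    {G p : ℝ → ℝ} {P : Polynomial ℝ} {r : ℝ} (hr : 0 < r) (hp : ContDiff ℝ ∞ p)
    (hG : ∀ s, G (μ * s) = κ ^ 2 * G s + P.eval s) (hb : ∀ s, |s| < r → b₀ s = G s + p s)
    {y : X} (hy : L.em y = o.neg) {u : E2} (hu : u ∈ ball (0 : E2) 3) :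
    ContDiffAt ℝ ∞ (QT T n i G y) u := by
  have hx0 : L.em o.x = o.neg := rfl
  have h3 : (0 : E2) ∈ ball (0 : E2) 3 := mem_ball_self (by norm_num)
  -- near `β^+`
  have hc : ContinuousAt (jj n o.x) 0 := (jj_contDiffAt n hx0 h3).continuousAt
  have hev : ∀ᶠ v in 𝓝 (0 : E2), v ∈ ball (0 : E2) 3 ∧ jj n o.x v ∈ ball (0 : E2) δ ∧
      |jj n o.x v i| < r := by
    refine (isOpen_ball.eventually_mem h3).and ?_
    have h4 : ∀ᶠ x in 𝓝 (jj n o.x 0), x ∈ ball (0 : E2) δ ∧ |x i| < r := by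
      rw [jj_zero]
      refine (isOpen_ball.eventually_mem (mem_ball_self hδ)).and ?_
      have h5 : Continuous fun x : E2 => |x i| :=
        ((EuclideanSpace.proj (𝕜 := ℝ) i : E2 →L[ℝ] ℝ).continuous).abs
      refine (h5.continuousAt (x := (0 : E2))).eventually_lt_const ?_
      simpa using hr
    exact hc.eventually h4
  obtain ⟨O, hO, hOo, h0⟩ := _root_.mem_nhds_iff.1 hev
  have hO3 : O ⊆ ball (0 : E2) 3 := fun v hv => (hO hv).1
  have hloc : ∀ v ∈ O, ContDiffAt ℝ ∞ (QT T n i G o.x) v := by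
    intro v hv
    have h1 : QT T n i G o.x =ᶠ[𝓝 v] fun v => W (jj n o.x v) +
        p (jj n o.x v i) • sq (ee (1 - i)) := by
      filter_upwards [hOo.mem_nhds hv] with w hw
      obtain ⟨w1, w2, w3⟩ := hO hw
      have e1 := h w w1 (mem_ball_zero_iff.1 w2)
      have e2 : MT T n o.x w = W (jj n o.x w) + b₀ (jj n o.x w i) • sq (ee (1 - i)) := e1
      unfold QT
      rw [e2, hb _ w3, add_smul]
      abel
    refine ContDiffAt.congr_of_eventuallyEq ?_ h1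
    obtain ⟨w1, w2, w3⟩ := hO hv
    have c1 : ContDiffAt ℝ ∞ (fun v => W (jj n o.x v)) v :=
      ((hW _ w2).contDiffAt (isOpen_ball.mem_nhds w2)).comp v (jj_contDiffAt n hx0 w1)
    have c2 : ContDiffAt ℝ ∞ (fun v => p (jj n o.x v i)) v :=
      hp.contDiffAt.comp v (contDiffAt_coord hx0 i w1)
    exact c1.add (c2.smul contDiffAt_const)
  obtain ⟨m, hm1, hm2⟩ := (eventually_mem n hy hu hOo h0 hO3).exists
  exact QT_pow_smul hD hG m hy hu
    (QT_tau G (em_pow_smul o m hy) hx0 hm1 (hloc _ hm2))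

/-! ### `∇^⊥ f` in the normal coordinate -/

section Perp

variable [MeasurableSpace B] [BorelSpace B] (A : Area L)

omit [MeasurableSpace B] [BorelSpace B] in
theorem gradient_coord {y : X} (hy : L.em y = o.neg) (i : Fin 2) {u : E2}
    (hu : u ∈ ball (0 : E2) 3) : gradient (fun u => n.x (L.e y u) i) u =
      ContinuousLinearMap.adjoint (fderiv ℝ (jj n y) u) (ee i) := by
  refine ext_inner_right ℝ fun v => ?_
  rw [inner_gradient, ContinuousLinearMap.adjoint_inner_left]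
  have h1 := ((EuclideanSpace.proj (𝕜 := ℝ) i : E2 →L[ℝ] ℝ).hasFDerivAt.comp u
    (jj_hasFDerivAt n hy hu)).fderiv
  have h2 : fderiv ℝ (fun u => n.x (L.e y u) i) u =
      (EuclideanSpace.proj (𝕜 := ℝ) i : E2 →L[ℝ] ℝ).comp (fderiv ℝ (jj n y) u) := h1
  rw [h2]
  unfold ee
  rw [EuclideanSpace.inner_single_left]
  simp

/-- `∇^⊥ x_i = ± c⁻¹ (Dx)⁻¹ J e_i` -/
theorem perp_coord {y : X} (hy : L.em y = o.neg) (i : Fin 2) {u : E2}
    (hu : u ∈ ball (0 : E2) 3) : ∃ σ : ℝ, σ ^ 2 = 1 ∧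
      fderiv ℝ (jj n y) u (perp A y (fun η => n.x η i) u) = (σ / dc n A) • J (ee i) := by
  have hd := jj_det n hy hu
  have ha := area_eq n A hy hu
  refine ⟨(fderiv ℝ (jj n y) u).det / |(fderiv ℝ (jj n y) u).det|, ?_, ?_⟩
  · rw [div_pow, sq_abs, div_self (pow_ne_zero 2 hd)]
  · unfold perp
    rw [gradient_coord hy i hu, map_smul, J_conj, smul_smul]
    congr 1
    have hs : A.s y u = dc n A * |(fderiv ℝ (jj n y) u).det| * Real.exp (A.h * L.lv y) := by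
      rw [← ha, mul_right_comm, ← Real.exp_add]
      have : -A.h * L.lv y + A.h * L.lv y = 0 := by ring
      rw [this, Real.exp_zero, one_mul]
    have h1 := (Real.exp_pos (A.h * L.lv y)).ne'
    have h2 := (dc_pos n A).ne'
    have h3 : |(fderiv ℝ (jj n y) u).det| ≠ 0 := abs_ne_zero.2 hd
    rw [hs]
    field_simp

theorem sq_perp {y : X} (hy : L.em y = o.neg) (i : Fin 2) {u : E2}
    (hu : u ∈ ball (0 : E2) 3) :
    (dc n A) ^ 2 • conj (fderiv ℝ (jj n y) u) (sq (perp A y (fun η => n.x η i) u)) =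
      sq (ee (1 - i)) := by
  obtain ⟨σ, hσ, h⟩ := perp_coord A hy i hu
  rw [conj_sq, h, sq_smul, sq_J_ee, smul_smul]
  have h2 := (dc_pos n A).ne'
  have : dc n A ^ 2 * (σ / dc n A) ^ 2 = 1 := by
    rw [div_pow, hσ]; field_simp
  rw [this, one_smul]

end Perp

end Vale.Agent.P207.N3.H854
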