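import Vale.Agent.P207.N3.H854.Lev

/-!
N3-P13T (helper854): `lev_of_loc`, the level form on the whole leaf from the local form.
-/

set_option maxSynthPendingDepth 3

open Set Filter Topology Metric
open scoped ContDiff

noncomputable section

namespace Vale.Agent.P207.N3.H854

open Vale.Agent.P207.N3 Vale.Agent.P207.N3.H545
open Vale.Agent.P207.N3.H790 (NF)

variable {Γ X B : Type} [Group Γ] [MetricSpace X] [ProperSpace X] [MulAction Γ X]
  [IsIsometricSMul Γ X] [TopologicalSpace B] [CompactSpace B] [T2Space B] [MulAction Γ B]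
  [ContinuousConstSMul Γ B]

variable {L : Leaf Γ X B} {o : Orb L} (n : Nor L o) (T : Tens L) (i : Fin 2)

/-- the inverse derivative of the normal coordinate -/
def Si (n : Nor L o) (y : X) (u : E2) : E2 →L[ℝ] E2 := Ring.inverse (fderiv ℝ (jj n y) u)

theorem Si_mul {y : X} (hy : L.em y = o.neg) {u : E2} (hu : u ∈ ball (0 : E2) 3) :
    Si n y u * fderiv ℝ (jj n y) u = 1 :=
  Ring.inverse_mul_cancel _ (isUnit_of_det _ (jj_det n hy hu))

theorem Si_contDiffAt {y : X} (hy : L.em y = o.neg) {u : E2} (hu : u ∈ ball (0 : E2) 3) :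
    ContDiffAt ℝ ∞ (Si n y) u := by
  obtain ⟨x, hx⟩ := isUnit_of_det _ (jj_det n hy hu)
  have h1 : ContDiffAt ℝ ∞ (Ring.inverse : (E2 →L[ℝ] E2) → (E2 →L[ℝ] E2))
      (fderiv ℝ (jj n y) u) := by
    rw [← hx]
    exact contDiffAt_ringInverse ℝ x
  exact h1.comp u (jj_fderiv_contDiffAt n hy hu)

/-- the smooth part -/
def VV (T : Tens L) (n : Nor L o) (i : Fin 2) (G : ℝ → ℝ) (y : X) (u : E2) : E2 →L[ℝ] E2 :=
  conj (Si n y u) (QT T n i G y u)

theorem N_eq (G : ℝ → ℝ) {y : X} (hy : L.em y = o.neg) {u : E2} (hu : u ∈ ball (0 : E2) 3) :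
    T.N y u = VV T n i G y u + G (jj n y u i) • conj (Si n y u) (sq (ee (1 - i))) := by
  have h1 : conj (Si n y u) (MT T n y u) = T.N y u := by
    unfold MT
    rw [← conj_mul, Si_mul n hy hu, conj_one]
  rw [← h1]
  unfold VV QT
  rw [conj_sub, conj_smul]
  abel

variable [MeasurableSpace B] [BorelSpace B] (A : Area L)

theorem conj_Si_sq {y : X} (hy : L.em y = o.neg) {u : E2} (hu : u ∈ ball (0 : E2) 3) :
    conj (Si n y u) (sq (ee (1 - i))) =
      (dc n A) ^ 2 • sq (perp A y (fun η => n.x η i) u) := by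
  rw [← sq_perp A hy i hu, conj_smul, ← conj_mul, Si_mul n hy hu, conj_one]

variable {n i T}

/-- THE LEVEL FORM ON THE WHOLE LEAF -/
theorem lev_of_loc {k₀ : ℕ} (hR : Rough T k₀) {μ κ : ℝ} (hD : DirN n.N i μ κ)
    (hloc : LocForm T n i) :
    ∃ t : LevForm A T k₀ o, t.n = n ∧ t.i = i ∧ t.χ = Real.log |μ| / o.l := by
  obtain ⟨δ, hδ, b₀, W, hb, hW, hf⟩ := hloc
  obtain ⟨G, p, P, r, hr, hG, hp, hGP, hbG⟩ := rel_of_loc hD hδ hb hW hf
  have hμ0 : 0 < |μ| := by linarith [hD.one_lt]
  have hμ : μ ≠ 0 := abs_pos.1 hμ0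
  have hl : 0 < o.l := o.ax.pos
  set c : ℝ := dc n A with hc
  have hc0 : 0 < c := dc_pos n A
  set χ : ℝ := Real.log |μ| / o.l with hχ
  have hχl : Real.exp (χ * o.l) = |μ| := by
    rw [hχ, div_mul_cancel₀ _ hl.ne', Real.exp_log hμ0]
  have hε : μ / |μ| * Real.exp (χ * o.l) = μ := by rw [hχl, div_mul_cancel₀ _ hμ0.ne']
  have hVs : ∀ y, L.em y = o.neg → ∀ u ∈ ball (0 : E2) 3,
      ContDiffAt ℝ ∞ (VV T n i G y) u := fun y hy u hu =>
    contDiffAt_conj (Si_contDiffAt n hy hu)
      (QT_smooth hD hδ hW hf hr hp hGP hbG hy hu)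
  have hform : ∀ y, L.em y = o.neg → ∀ u ∈ ball (0 : E2) 3,
      T.N y u = VV T n i G y u +
        (c ^ 2 * G (jj n y u i)) • sq (perp A y (fun η => n.x η i) u) := by
    intro y hy u hu
    rw [N_eq n T i G hy hu, conj_Si_sq n i A hy hu, smul_smul, mul_comm]
  refine ⟨{ n := n
            i := i
            χ := χ
            ε := μ / |μ|
            ε_abs := ?_
            equiv := ?_
            b := fun s => c ^ 2 * G s
            b_cont := continuous_const.mul hG
            b_rough := ?_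
            b_equiv := ?_
            V := VV T n i G
            V_smooth := fun y hy u hu => (hVs y hy u hu).contDiffWithinAt
            form := ?_ }, rfl, rfl, rfl⟩
  · rw [abs_div, abs_abs, div_self hμ0.ne']
  · intro η hη
    rw [n.equiv η hη, hD.fn, hε]
  · -- rough
    intro I hI hIne hbI
    obtain ⟨s, hs⟩ := hIne
    obtain ⟨y, hy1, hy2, -⟩ := L.exists_frame o.neg (n.inv (s • ee i))
      (Ne.symm (n.inv_ne _)) 0
    have h3 : (0 : E2) ∈ ball (0 : E2) 3 := mem_ball_self (by norm_num)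
    have hj0 : jj n y 0 i = s := by
      unfold jj
      rw [L.e_zero, hy2, n.inv_right, PiLp.smul_apply, ee_same, smul_eq_mul, mul_one]
    set O : Set E2 := ball 0 3 ∩ (fun u => jj n y u i) ⁻¹' I with hO
    have hjc : ContinuousOn (fun u => jj n y u i) (ball (0 : E2) 3) := fun u hu =>
      (contDiffAt_coord hy1 i hu).continuousAt.continuousWithinAt
    have hOo : IsOpen O := hjc.isOpen_inter_preimage isOpen_ball hI
    refine hR y O hOo inter_subset_left ⟨0, h3, ?_⟩ ?_
    · rw [mem_preimage, hj0]; exact hs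
    · intro u hu
      have h1 : T.N y =ᶠ[𝓝 u] fun u => VV T n i G y u +
          ((c ^ 2)⁻¹ * (c ^ 2 * G (jj n y u i))) • conj (Si n y u) (sq (ee (1 - i))) := by
        filter_upwards [isOpen_ball.mem_nhds hu.1] with v hv
        rw [inv_mul_cancel_left₀ (pow_ne_zero 2 hc0.ne')]
        exact N_eq n T i G hy1 hv
      refine ContDiffAt.contDiffWithinAt (ContDiffAt.congr_of_eventuallyEq ?_ h1)
      have c1 : ContDiffAt ℝ k₀ (VV T n i G y) u :=
        (hVs y hy1 u hu.1).of_le (by exact_mod_cast le_top)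
      have c2 : ContDiffAt ℝ k₀ (fun u => c ^ 2 * G (jj n y u i)) u := by
        have h4 : ContDiffAt ℝ k₀ (fun s => c ^ 2 * G s) (jj n y u i) :=
          (hbI _ hu.2).contDiffAt (hI.mem_nhds hu.2)
        have h5 : ContDiffAt ℝ k₀ (fun u => jj n y u i) u :=
          (contDiffAt_coord hy1 i hu.1).of_le (by exact_mod_cast le_top)
        exact ContDiffAt.comp (g := fun s => c ^ 2 * G s) (f := fun u => jj n y u i) u h4 h5
      have c3 : ContDiffAt ℝ k₀ (fun u => conj (Si n y u) (sq (ee (1 - i)))) u :=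
        contDiffAt_conj ((Si_contDiffAt n hy1 hu.1).of_le (by exact_mod_cast le_top))
          contDiffAt_const
      exact c1.add ((contDiffAt_const.mul c2).smul c3)
  · -- equivariance of `b`
    refine ⟨Polynomial.C (c ^ 2) * P, fun s => ?_⟩
    have hκ : Real.exp ((2 * A.h - 2 * χ) * o.l) = κ ^ 2 := by
      have h1 : |μ| * |κ| = Real.exp (A.h * o.l) := by
        rw [← abs_mul, hD.dt, abs_dt_eq n A]
      have h2 : |κ| = Real.exp ((A.h - χ) * o.l) := by
        have h3 : Real.exp ((A.h - χ) * o.l) * |μ| = Real.exp (A.h * o.l) := by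
          rw [← hχl, ← Real.exp_add]; congr 1; ring
        rw [← h1, mul_comm] at h3
        exact (mul_left_cancel₀ hμ0.ne' h3).symm
      rw [← sq_abs κ, h2, ← Real.exp_nat_mul]
      congr 1
      push_cast; ring
    rw [hε, hκ, hGP, Polynomial.eval_mul, Polynomial.eval_C]
    ring
  · intro y hy u hu v
    rw [hform y hy u hu]
    rw [add_apply, smul_apply, sq_apply, smul_smul]
    rfl

end Vale.Agent.P207.N3.H854
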