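import Vale.Agent.P207.N3.H854.Dens
import Vale.Agent.P207.N3.H854.LForm

/-!
N3-P13T (helper854): the tensor in the normal coordinate and its equivariance.

* `sq w` : the tensor square, `conj_sq`;
* `jH n hy` : the normal coordinate in the disc `e y` as a partial homeomorphism, smooth inverse;
* `MT T n y u` : the tensor `N y u` in the normal coordinate; change of frame, equivariance;
* `TL T n x` : the tensor in the normal coordinate near `β^+`; `TL_cocycle`.
-/

set_option maxSynthPendingDepth 3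

open Set Filter Topology Metric
open scoped ContDiff

noncomputable section

namespace Vale.Agent.P207.N3.H854

open Vale.Agent.P207.N3 Vale.Agent.P207.N3.H545
open Vale.Agent.P207.N3.H790 (NF)

/-! ### conj -/

theorem conj_eq_conjT (A M : E2 →L[ℝ] E2) : conj A M = conjT A M := rfl

theorem conj_eq_mul (A M : E2 →L[ℝ] E2) : conj A M = A * M * star A := rfl

theorem conj_add (A M M' : E2 →L[ℝ] E2) : conj A (M + M') = conj A M + conj A M' := by
  rw [conj_eq_conjT, conj_eq_conjT, conj_eq_conjT, map_add]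

theorem conj_sub (A M M' : E2 →L[ℝ] E2) : conj A (M - M') = conj A M - conj A M' := by
  rw [conj_eq_conjT, conj_eq_conjT, conj_eq_conjT, map_sub]

theorem conj_smul (A M : E2 →L[ℝ] E2) (c : ℝ) : conj A (c • M) = c • conj A M := by
  rw [conj_eq_conjT, conj_eq_conjT, map_smul]

theorem conj_mul (A A' M : E2 →L[ℝ] E2) : conj (A * A') M = conj A (conj A' M) := by
  simp only [conj_eq_mul, star_mul, mul_assoc]

theorem conj_comp (A A' M : E2 →L[ℝ] E2) : conj (A.comp A') M = conj A (conj A' M) :=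
  conj_mul A A' M

theorem conj_one (M : E2 →L[ℝ] E2) : conj 1 M = M := by
  rw [conj_eq_mul, star_one, one_mul, mul_one]

theorem contDiffAt_star {F : Type} [NormedAddCommGroup F] [NormedSpace ℝ F] {k : WithTop ℕ∞}
    {A : F → E2 →L[ℝ] E2} {u : F} (hA : ContDiffAt ℝ k A u) :
    ContDiffAt ℝ k (fun v => star (A v)) u := by
  have h := ((starL' ℝ : (E2 →L[ℝ] E2) ≃L[ℝ] (E2 →L[ℝ] E2)) :
    (E2 →L[ℝ] E2) →L[ℝ] (E2 →L[ℝ] E2)).contDiff (n := k)
  exact h.contDiffAt.comp u hA

theorem contDiffAt_conj {F : Type} [NormedAddCommGroup F] [NormedSpace ℝ F] {k : WithTop ℕ∞}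
    {A M : F → E2 →L[ℝ] E2} {u : F} (hA : ContDiffAt ℝ k A u) (hM : ContDiffAt ℝ k M u) :
    ContDiffAt ℝ k (fun v => conj (A v) (M v)) u := by
  have h : (fun v => conj (A v) (M v)) = fun v => A v * M v * star (A v) := rfl
  rw [h]
  exact (hA.mul hM).mul (contDiffAt_star hA)

theorem conj_sq (A : E2 →L[ℝ] E2) (w : E2) : conj A (sq w) = sq (A w) := by
  ext v : 1
  show A (sq w (ContinuousLinearMap.adjoint A v)) = sq (A w) v
  rw [sq_apply, sq_apply, map_smul, ContinuousLinearMap.adjoint_inner_right]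

theorem sq_smul (c : ℝ) (w : E2) : sq (c • w) = (c ^ 2) • sq w := by
  ext v : 1
  rw [smul_apply, sq_apply, sq_apply, inner_smul_left, smul_smul, smul_smul]
  congr 1
  simp
  ring

theorem sq_neg (w : E2) : sq (-w) = sq w := by
  have := sq_smul (-1) w
  simpa using this

theorem contDiffAt_sq {F : Type} [NormedAddCommGroup F] [NormedSpace ℝ F] {k : WithTop ℕ∞}
    {w : F → E2} {u : F} (hw : ContDiffAt ℝ k w u) : ContDiffAt ℝ k (fun v => sq (w v)) u := by
  have h1 : ContDiffAt ℝ k (fun v => innerSL ℝ (w v)) u :=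
    (innerSL ℝ : E2 →L[ℝ] E2 →L[ℝ] ℝ).contDiff.contDiffAt.comp u hw
  exact h1.smulRight hw

/-! ### rotation -/

theorem J_0 (v : E2) : J v 0 = -(v 1) := rfl
theorem J_1 (v : E2) : J v 1 = v 0 := rfl

/-- `A J Aᵀ = det A J` -/
theorem J_conj (A : E2 →L[ℝ] E2) (w : E2) :
    A (J (ContinuousLinearMap.adjoint A w)) = A.det • J w := by
  obtain ⟨a, b, c, d, rfl⟩ : ∃ a b c d, A = mat a b c d := ⟨_, _, _, _, eq_mat A⟩
  have h : ContinuousLinearMap.adjoint (mat a b c d) = mat a c b d := star_mat a b c d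
  rw [h, det_mat]
  apply ext2
  · rw [mat_0, J_0, J_1, mat_1, mat_0, PiLp.smul_apply, J_0, smul_eq_mul]; ring
  · rw [mat_1, J_0, J_1, mat_1, mat_0, PiLp.smul_apply, J_1, smul_eq_mul]; ring

theorem J_ee0 : J (ee 0) = ee 1 := by
  apply ext2
  · rw [J_0, ee_01, ee_10, neg_zero]
  · rw [J_1, ee_00, ee_11]

theorem J_ee1 : J (ee 1) = -ee 0 := by
  apply ext2
  · rw [J_0, ee_11, PiLp.neg_apply, ee_00]
  · rw [J_1, ee_10, PiLp.neg_apply, ee_01, neg_zero]

theorem sq_J_ee (i : Fin 2) : sq (J (ee i)) = sq (ee (1 - i)) := by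
  fin_cases i
  · show sq (J (ee 0)) = sq (ee (1 - 0))
    rw [J_ee0, sub_zero]
  · show sq (J (ee 1)) = sq (ee (1 - 1))
    rw [J_ee1, sub_self, sq_neg]

/-! ### the normal coordinate as a partial homeomorphism -/

variable {Γ X B : Type} [Group Γ] [MetricSpace X] [ProperSpace X] [MulAction Γ X]
  [IsIsometricSMul Γ X] [TopologicalSpace B] [CompactSpace B] [T2Space B] [MulAction Γ B]
  [ContinuousConstSMul Γ B]

variable {L : Leaf Γ X B} {o : Orb L} (n : Nor L o)

/-- the inverse of the normal coordinate in the disc `e y` -/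
def ji (n : Nor L o) (y : X) (x : E2) : E2 :=
  Function.invFunOn (L.e y) (closedBall (0 : E2) 3) (n.inv x)

theorem ji_jj {y : X} (hy : L.em y = o.neg) {u : E2} (hu : u ∈ ball (0 : E2) 3) :
    ji n y (jj n y u) = u := by
  unfold ji jj
  rw [n.inv_left _ (e_ne_neg o hy hu)]
  have h' : ∃ a ∈ closedBall (0 : E2) 3, L.e y a = L.e y u := ⟨u, ball_subset_closedBall hu, rfl⟩
  exact L.e_inj y (Function.invFunOn_mem h') (ball_subset_closedBall hu)
    (Function.invFunOn_eq h')

theorem jj_image {y : X} (hy : L.em y = o.neg) {O : Set E2} (hO3 : O ⊆ ball (0 : E2) 3) :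
    jj n y '' O = n.inv ⁻¹' (L.e y '' O) := by
  ext x
  constructor
  · rintro ⟨u, hu, rfl⟩
    refine ⟨u, hu, ?_⟩
    unfold jj
    rw [n.inv_left _ (e_ne_neg o hy (hO3 hu))]
  · rintro ⟨u, hu, he⟩
    refine ⟨u, hu, ?_⟩
    unfold jj
    rw [he, n.inv_right]

theorem isOpen_jj_image {y : X} (hy : L.em y = o.neg) {O : Set E2} (hO : IsOpen O)
    (hO3 : O ⊆ ball (0 : E2) 3) : IsOpen (jj n y '' O) := by
  rw [jj_image n hy hO3]
  exact (isOpen_image_of L y hO hO3).preimage n.inv_cont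

/-- the normal coordinate in the disc `e y` -/
def jH (n : Nor L o) {y : X} (hy : L.em y = o.neg) : OpenPartialHomeomorph E2 E2 where
  toFun := jj n y
  invFun := ji n y
  source := ball 0 3
  target := jj n y '' ball 0 3
  map_source' := fun u hu => ⟨u, hu, rfl⟩
  map_target' := by
    rintro x ⟨u, hu, rfl⟩
    rw [ji_jj n hy hu]; exact hu
  left_inv' := fun u hu => ji_jj n hy hu
  right_inv' := by
    rintro x ⟨u, hu, rfl⟩
    rw [ji_jj n hy hu]
  open_source := isOpen_ball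
  open_target := isOpen_jj_image n hy isOpen_ball subset_rfl
  continuousOn_toFun := (jj_contDiffOn n hy).continuousOn
  continuousOn_invFun := by
    rw [continuousOn_open_iff (isOpen_jj_image n hy isOpen_ball subset_rfl)]
    intro O hO
    have h : jj n y '' ball 0 3 ∩ ji n y ⁻¹' O = jj n y '' (ball 0 3 ∩ O) := by
      ext x
      constructor
      · rintro ⟨⟨u, hu, rfl⟩, h2⟩
        rw [mem_preimage, ji_jj n hy hu] at h2
        exact ⟨u, ⟨hu, h2⟩, rfl⟩
      · rintro ⟨u, ⟨hu, h2⟩, rfl⟩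
        refine ⟨⟨u, hu, rfl⟩, ?_⟩
        rw [mem_preimage, ji_jj n hy hu]
        exact h2
    rw [h]
    exact isOpen_jj_image n hy (isOpen_ball.inter hO) inter_subset_left

theorem jj_ji {y : X} (hy : L.em y = o.neg) {x : E2} (hx : x ∈ jj n y '' ball 0 3) :
    jj n y (ji n y x) = x := (jH n hy).right_inv hx

theorem ji_mem {y : X} (hy : L.em y = o.neg) {x : E2} (hx : x ∈ jj n y '' ball 0 3) :
    ji n y x ∈ ball (0 : E2) 3 := (jH n hy).map_target hx

theorem ji_contDiffAt {y : X} (hy : L.em y = o.neg) {x : E2} (hx : x ∈ jj n y '' ball 0 3) :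
    ContDiffAt ℝ ∞ (ji n y) x := by
  have hm := ji_mem n hy hx
  refine (jH n hy).contDiffAt_symm (f₀' := equivOfDet _ (jj_det n hy hm)) hx ?_
    (jj_contDiffAt n hy hm)
  rw [coe_equivOfDet]
  exact jj_hasFDerivAt n hy hm

theorem jj_zero : jj n o.x 0 = 0 := by
  unfold jj
  rw [L.e_zero]
  exact n.base

theorem zero_mem_target : (0 : E2) ∈ jj n o.x '' ball 0 3 :=
  ⟨0, mem_ball_self (by norm_num), jj_zero n⟩

theorem ji_zero : ji n o.x 0 = 0 := by
  conv_lhs => rw [← jj_zero n]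
  exact ji_jj n rfl (mem_ball_self (by norm_num))

/-! ### the tensor in the normal coordinate -/

/-- `N y u` in the normal coordinate -/
def MT (T : Tens L) (n : Nor L o) (y : X) (u : E2) : E2 →L[ℝ] E2 :=
  conj (fderiv ℝ (jj n y) u) (T.N y u)

variable (T : Tens L)

theorem MT_tau {y z : X} (hy : L.em y = o.neg) (hz : L.em z = o.neg) {u : E2}
    (hu : u ∈ L.dm y z) : MT T n z (L.τ y z u) = MT T n y u +
      conj (fderiv ℝ (jj n z) (L.τ y z u)) (T.R y z u) := by
  unfold MT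
  rw [fderiv_jj_tau n hy hz hu, conj_comp, ← conj_add]
  congr 1
  exact T.R_eq y z (hy.trans hz.symm) u hu

theorem MT_inv_smul {y : X} (hy : L.em y = o.neg) {u : E2} (hu : u ∈ ball (0 : E2) 3) :
    MT T n (o.β⁻¹ • y) u = conj (dN n.N (jj n y u)) (MT T n y u) := by
  unfold MT
  rw [fderiv_jj_inv_smul n hy hu, conj_comp, T.N_smul _ y u hu]

/-- the correction is smooth -/
theorem corr_contDiffAt {y z : X} (hy : L.em y = o.neg) (hz : L.em z = o.neg) {u : E2}
    (hu : u ∈ L.dm y z) : ContDiffAt ℝ ∞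
      (fun u => conj (fderiv ℝ (jj n z) (L.τ y z u)) (T.R y z u)) u := by
  refine contDiffAt_conj ?_ ?_
  · exact (jj_fderiv_contDiffAt n hz (tau_mem_dm L hu).1).comp u
      (tau_contDiffAt L (hy.trans hz.symm) hu)
  · exact (T.R_smooth y z (hy.trans hz.symm) u hu).contDiffAt ((isOpen_dm L y z).mem_nhds hu)

/-- the tensor in the normal coordinate, near `β^+` -/
def TL (T : Tens L) (n : Nor L o) (x : E2) : E2 →L[ℝ] E2 := MT T n o.x (ji n o.x x)

theorem TL_jj {u : E2} (hu : u ∈ ball (0 : E2) 3) : TL T n (jj n o.x u) = MT T n o.x u := by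
  unfold TL
  rw [ji_jj n rfl hu]

theorem smNear_of_eventually {F : Type} [NormedAddCommGroup F] [NormedSpace ℝ F] {g : E2 → F}
    (h : ∀ᶠ x in 𝓝 (0 : E2), ContDiffAt ℝ ∞ g x) : SmNear g := by
  obtain ⟨ρ, hρ, h1⟩ := Metric.eventually_nhds_iff_ball.1 h
  exact ⟨ρ, hρ, fun x hx => (h1 x hx).contDiffWithinAt⟩

theorem eventually_of_smNear {F : Type} [NormedAddCommGroup F] [NormedSpace ℝ F] {g : E2 → F}
    (h : SmNear g) : ∀ᶠ x in 𝓝 (0 : E2), ContDiffAt ℝ ∞ g x := by
  obtain ⟨ρ, hρ, h1⟩ := h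
  filter_upwards [isOpen_ball.mem_nhds (mem_ball_self hρ)] with x hx
  exact (h1 x hx).contDiffAt (isOpen_ball.mem_nhds hx)

/-- (L4) THE COCYCLE: the tensor is equivariant up to a smooth tensor -/
theorem TL_cocycle : SmNear (fun x => TL T n (n.N.fn x) - conj (dN n.N x) (TL T n x)) := by
  have hx : L.em o.x = o.neg := rfl
  have hz : L.em (o.β⁻¹ • o.x) = o.neg := em_inv_smul o hx
  have hp : L.ep (o.β⁻¹ • o.x) = L.ep o.x := by
    rw [ep_smul]; exact inv_smul_pos o
  have h0 : (0 : E2) ∈ L.dm (o.β⁻¹ • o.x) o.x := zero_mem_dm hp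
  apply smNear_of_eventually
  -- points `x` near `0`
  have hT : ∀ᶠ x in 𝓝 (0 : E2), x ∈ jj n o.x '' ball 0 3 :=
    (isOpen_jj_image n hx isOpen_ball subset_rfl).mem_nhds (zero_mem_target n)
  have hc : ContinuousAt (ji n o.x) 0 := (ji_contDiffAt n hx (zero_mem_target n)).continuousAt
  have hD : ∀ᶠ x in 𝓝 (0 : E2), ji n o.x x ∈ L.dm (o.β⁻¹ • o.x) o.x := by
    apply hc
    rw [ji_zero]
    exact (isOpen_dm L _ _).mem_nhds h0
  filter_upwards [(hT.and hD).eventually_nhds] with x hxx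
  have h1 : (fun x => TL T n (n.N.fn x) - conj (dN n.N x) (TL T n x)) =ᶠ[𝓝 x]
      fun x => (fun u => conj (fderiv ℝ (jj n o.x) (L.τ (o.β⁻¹ • o.x) o.x u))
        (T.R (o.β⁻¹ • o.x) o.x u)) (ji n o.x x) := by
    filter_upwards [hxx] with w hw
    obtain ⟨hw1, hw2⟩ := hw
    have hu := ji_mem n hx hw1
    have e1 : jj n o.x (L.τ (o.β⁻¹ • o.x) o.x (ji n o.x w)) = n.N.fn w := by
      rw [jj_tau n hw2, jj_inv_smul n hx hu, jj_ji n hx hw1]
    have e2 : TL T n (n.N.fn w) = MT T n o.x (L.τ (o.β⁻¹ • o.x) o.x (ji n o.x w)) := by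
      rw [← e1]
      exact TL_jj n T (tau_mem_dm L hw2).1
    have e3 := MT_tau n T hz hx hw2
    rw [e2, e3, MT_inv_smul n T hx hu, jj_ji n hx hw1]
    show conj (dN n.N w) (MT T n o.x (ji n o.x w)) + _ - conj (dN n.N w) (TL T n w) = _
    unfold TL
    abel
  refine ContDiffAt.congr_of_eventuallyEq ?_ h1
  obtain ⟨hw1, hw2⟩ := hxx.self_of_nhds
  exact (corr_contDiffAt n T hz hx hw2).comp x (ji_contDiffAt n hx hw1)

end Vale.Agent.P207.N3.H854
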